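import Vale.Agent.P032.S5.H450.OneOne
import Vale.Agent.P032.S5.H287.DPtC

/-!
# P032: the rule (1,1) of a five coloured centre, clean circles of two-pair points only

The theorem `one_one` of `H450.OneOne` with the hypothesis on unit pairs replaced by: the unit circle of a
point with two complementary exact pairs (`DPt`) is clean.
-/

open Set Filter Topology Metric

noncomputable section

namespace Vale.Agent.P032.S5.H122

open Vale.Agent.P032.Six Vale.Agent.P032.S5.H450

variable {U : Fin 6 → Set ℂ} {T : ℂ → Set (Fin 6)} {X : Set (Fin 6)} {z v q : ℂ} {d f : Fin 6}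

/-- a centre which is light at both nodes is a `DPt` -/
theorem dpt_of_light (h : Irr U T) {c x : ℂ} (N : Nd T X c v x) {a : Fin 6} (ha : a ∈ X)
    (hac : a ∉ T c) (hd : d ∈ Xᶜ) (hdc : d ∉ T c) : ∃ a b c' d, DPt T c a b c' d := by
  obtain ⟨g, -, hg, hgP⟩ := N.acc h ha hac univ univ_mem
  have hgT : T g = X \ {a} := hgP.self_of_nhdsWithin (show g ∈ sphere c 1 from hg)
  obtain ⟨g', -, hg', hgP'⟩ := N.swap.acc h hd hdc univ univ_mem
  have hgT' : T g' = Xᶜ \ {d} := hgP'.self_of_nhdsWithin (show g' ∈ sphere c 1 from hg')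
  refine exists_DPt hg hg' (by rw [hgT]; exact hgP) (by rw [hgT']; exact hgP')
    (by rw [hgT]; exact N.two_sdiff ha) (by rw [hgT']; exact N.swap.two_sdiff hd) ?_ ?_
  · rw [hgT, hgT', Set.disjoint_left]
    exact fun i hi hi' => hi'.1 hi.1
  · rw [hgT, hgT']
    refine Subset.antisymm (union_subset (N.rest h ha hac) (N.swap.rest h hd hdc)) fun i hi => ?_
    by_cases hiX : i ∈ X
    · exact Or.inl ⟨hiX, fun h1 => hac (by rw [mem_singleton_iff] at h1; exact h1 ▸ hi)⟩
    · exact Or.inr ⟨hiX, fun h1 => hdc (by rw [mem_singleton_iff] at h1; exact h1 ▸ hi)⟩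

/-- **The rule (1,1)** -/
theorem one_oneD (h : Irr U T)
    (hmin : ∀ z, 4 ≤ (T z).ncard → ∀ s, s ⊆ T z → s ≠ T z →
      ¬ ∀ᶠ w in 𝓝 z, ∃ i ∈ s, w ∈ U i ∨ (w ∈ XX U ∧ i ∈ Pal U w))
    (hD : ∀ z v, dist z v = 1 → 4 ≤ (T v).ncard → (∃ a b c d, DPt T z a b c d) → False)
    (h5 : (T z).ncard = 5) (hX : X.ncard = 3) (hXz : Xᶜ ⊆ T z) (hd : d ∈ Xᶜ)
    (hno : ∀ y, dist y z = 1 → T y ≠ Xᶜ \ {d}) {v v' q q' : ℂ}
    (hv : v ∈ closure (H767.Ex T z (T z ∩ X))) (hv' : v' ∈ closure (H767.Ex T z (T z ∩ X)))
    (hTv : T v = X) (hTv' : T v' = X) (hq : dist q z = 1) (hq' : dist q' z = 1)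
    (hTq : T q = Xᶜ) (hTq' : T q' = Xᶜ) : v = v' ∧ q = q' := by
  have hXc : Xᶜ.ncard = 3 := ncard_compl_three' hX
  -- the missing colour
  obtain ⟨f, hf, hfz⟩ : ∃ f ∈ X, f ∉ T z := by
    by_contra hcon
    push Not at hcon
    have h1 : T z = univ := by
      ext i
      simp only [mem_univ, iff_true]
      by_cases hi : i ∈ X
      · exact hcon i hi
      · exact hXz hi
    rw [h1, Set.ncard_univ, Nat.card_eq_fintype_card, Fintype.card_fin] at h5
    omega
  -- nodes
  have node : ∀ {x y : ℂ}, x ∈ closure (H767.Ex T z (T z ∩ X)) → T x = X → dist y z = 1 →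
      T y = Xᶜ → Nd T X z x y := by
    intro x y hx hTx hy hTy
    refine ⟨hX, by rw [dist_comm]; exact H767.dist_of_closure hx, by rw [dist_comm]; exact hy,
      hTx, hTy, fun h1 => ?_⟩
    refine H767.anti h (z := z) (y := y) hy (by rw [hTy, hXc]) (P := T z ∩ X) (fun i hi => ?_) ?_
    · by_cases h2 : i ∈ X
      · exact Or.inr ⟨hi, h2⟩
      · exact Or.inl (by rw [hTy]; exact h2)
    · have e : 2 * z - y = x := by linear_combination -h1
      rw [e]; exact hx
  have stay : ∀ {y : ℂ}, dist y z = 1 → T y = Xᶜ → Stay T z y d := by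
    intro y hy hTy
    unfold Stay
    filter_upwards [mem_nhdsWithin_of_mem_nhds (h.nhd y), self_mem_nhdsWithin] with x h1 h2
    by_contra h3
    have h4 : T x ⊆ Xᶜ \ {d} := fun i hi => ⟨hTy ▸ h1 hi, fun h6 => h3 (by
      rw [mem_singleton_iff] at h6; exact h6 ▸ hi)⟩
    have h6 : (Xᶜ \ {d} : Set (Fin 6)).ncard = 2 := by
      rw [Set.ncard_sdiff_singleton_of_mem hd, hXc]
    have h7 := h.pair_open (z := z) h6 (sdiff_subset.trans hXz) h4
    exact hno x h2 (h7.self_of_nhdsWithin h2)
  have N := node hv hTv hq hTq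
  have st := stay hq hTq
  constructor
  · -- one `X`-end
    have N' := node hv' hTv' hq hTq
    have h1 := N.other.swap.unique h N'.other.swap hd (N.miss h st) (N'.miss h st)
    linear_combination h1
  · -- one `Xᶜ`-point
    by_contra hqq
    have N' := node hv hTv hq' hTq'
    have st' := stay hq' hTq'
    set w := v + q - z with hw
    set w' := v + q' - z with hw'
    have Nw : Nd T X w v q := N.other
    have Nw' : Nd T X w' v q' := N'.other
    have hdw : d ∉ T w := N.miss h st
    have hdw' : d ∉ T w' := N'.miss h st'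
    have hwz : w ≠ z := N.ne_other
    have hwz' : w' ≠ z := N'.ne_other
    have hww' : w ≠ w' := fun h1 => hqq (by linear_combination h1 - hw + hw')
    have hfw : f ∈ T w := by
      by_contra h1
      exact hwz (Nw.unique h N hf h1 hfz)
    have hfw' : f ∈ T w' := by
      by_contra h1
      exact hwz' (Nw'.unique h N' hf h1 hfz)
    -- isolated `X`-points on `S(z)`
    have iso : ∀ᶠ y in 𝓝[sphere z 1] v, T y = X → y = v := by
      have h3 : ∀ᶠ y in 𝓝 v, y + q ≠ 2 * z := by
        have hc : Continuous fun y : ℂ => y + q := by fun_prop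
        exact hc.continuousAt.eventually (isOpen_ne.mem_nhds N.op)
      filter_upwards [mem_nhdsWithin_of_mem_nhds h3, self_mem_nhdsWithin] with y h4 h6 h7
      have Ny : Nd T X z y q :=
        ⟨hX, by rw [dist_comm]; exact h6, N.dq, h7, hTq, h4⟩
      have h8 := Ny.other.swap.unique h Nw.swap hd (Ny.miss h st) hdw
      linear_combination h8 + hw
    -- a heavy and a light centre
    have mixed : ∀ {c c' : ℂ} {b : Fin 6} {x : ℂ}, Nd T X c' v x → X ⊆ T c → dist c v = 1 →
        b ∈ X → b ∉ T c' → b ∈ T z → z ≠ c → z + c ≠ 2 * v → c ≠ c' → False := by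
      intro c c' b x Nc' hc hcv hb hbc' hbz h1 h2 h3
      rcases Nc'.heavy_line h hb hbc' hcv h3 hc (p' := z) N.dv hbz with h4 | h4
      · exact h1 h4
      · exact h2 h4
    have hin : ∀ {b : Fin 6}, b ∈ X → b ≠ f → b ∈ T z := fun hb hbf =>
      N.rest h hf hfz ⟨hb, hbf⟩
    by_cases hW : X ⊆ T w
    · by_cases hW' : X ⊆ T w'
      · rcases N.heavy_line h hf hfz Nw.dv hwz hW (p' := w') Nw'.dv hfw' with h1 | h1
        · exact hww' h1.symm
        · exact N.no_tangent h hf hfz iso Nw'.dv h1 hW' hW
      · obtain ⟨b, hb, hbw'⟩ : ∃ b ∈ X, b ∉ T w' := by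
          by_contra hcon
          push Not at hcon
          exact hW' hcon
        have hbf : b ≠ f := fun h1 => hbw' (h1 ▸ hfw')
        exact mixed Nw' hW Nw.dv hb hbw' (hin hb hbf) hwz.symm
          (fun h1 => N.ne (by linear_combination hw - h1)) hww'
    · obtain ⟨a, ha, haw⟩ : ∃ a ∈ X, a ∉ T w := by
        by_contra hcon
        push Not at hcon
        exact hW hcon
      have haf : a ≠ f := fun h1 => haw (h1 ▸ hfw)
      by_cases hW' : X ⊆ T w'
      · exact mixed Nw hW' Nw'.dv ha haw (hin ha haf) hwz'.symm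
          (fun h1 => N'.ne (by linear_combination hw' - h1)) hww'.symm
      · obtain ⟨b, hb, hbw'⟩ : ∃ b ∈ X, b ∉ T w' := by
          by_contra hcon
          push Not at hcon
          exact hW' hcon
        have hbf : b ≠ f := fun h1 => hbw' (h1 ▸ hfw')
        have hab : a ≠ b := fun h1 => hww' (Nw.unique h Nw' ha haw (h1 ▸ hbw'))
        have hX3 : ∀ i ∈ X, i = f ∨ i = a ∨ i = b := by
          intro i hi
          by_contra hcon
          push Not at hcon
          have h1 : ({i, f, a, b} : Set (Fin 6)) ⊆ X := by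
            rintro m (rfl | rfl | rfl | rfl) <;> assumption
          have h2 := Set.ncard_le_ncard h1 (Set.toFinite _)
          rw [Set.ncard_insert_of_notMem (by simp [hcon.1, hcon.2.1, hcon.2.2]) (Set.toFinite _),
            Set.ncard_insert_of_notMem (by simp [haf.symm, hbf.symm]) (Set.toFinite _),
            Set.ncard_pair hab] at h2
          omega
        have h3 : ∀ {c : ℂ}, (∃ a b c' d, DPt T c a b c' d) →
            ∀ y, dist y c = 1 → (T y).ncard ≤ 3 := by
          intro c hc y hy
          by_contra h1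
          exact hD c y (by rw [dist_comm]; exact hy) (by omega) hc
        obtain ⟨α, β, γ, hα, hβ, hγ, e1⟩ := L3_node h hmin Nw (s := w + w' - v)
          (h3 (dpt_of_light h Nw ha haw hd hdw)) ha haw hd hdw (fun x h1 h2 => N.xpts h hf hfz hXz hd st h1 h2)
          (fun y h1 h2 => N.ypts h Nw' hX3 hf ha hb hfz haw hbw' hfw hfw' hww' h1 h2)
        obtain ⟨α', β', γ', hα', hβ', hγ', e2⟩ := L3_node h hmin Nw' (s := w' + w - v)
          (h3 (dpt_of_light h Nw' hb hbw' hd hdw')) hb hbw' hd hdw' (fun x h1 h2 => N'.xpts h hf hfz hXz hd st' h1 h2)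
          (fun y h1 h2 => N'.ypts h Nw (fun i hi => (hX3 i hi).imp_right Or.symm) hf hb ha hfz
            hbw' haw hfw' hfw hww'.symm h1 h2)
        have hcr : cr (v - w) (v - z) ≠ 0 := cr_ne Nw.dvc N.dvc hwz
          (fun h1 => N.ne (by linear_combination hw - h1))
        have a1 := congrArg Complex.re e1
        have a2 := congrArg Complex.im e1
        have b1 := congrArg Complex.re e2
        have b2 := congrArg Complex.im e2
        have hq1 : q = w + z - v := by linear_combination -hw
        have hq2 : q' = w' + z - v := by linear_combination -hw'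
        rw [hq1] at a1 a2
        rw [hq2] at b1 b2
        simp only [Complex.add_re, Complex.mul_re, Complex.sub_re, Complex.ofReal_re,
          Complex.ofReal_im, zero_mul, sub_zero, Complex.zero_re, Complex.add_im, Complex.mul_im,
          Complex.sub_im, add_zero, Complex.zero_im] at a1 a2 b1 b2
        have key : (α' * β + γ * β') * cr (v - w) (v - z) = 0 := by
          unfold cr
          simp only [Complex.sub_re, Complex.sub_im]
          linear_combination (-α' * (v.re - w.re)) * a2 + (α' * (v.im - w.im)) * a1 +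
            (-γ * (v.re - w.re)) * b2 + (γ * (v.im - w.im)) * b1
        rcases mul_eq_zero.1 key with h1 | h1
        · have : 0 < α' * β + γ * β' := by positivity
          linarith
        · exact hcr h1

end Vale.Agent.P032.S5.H122
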