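import Vale.Agent.P032.S5.H122.Raw5
import Vale.Agent.P032.S5.H122.OneOneD

/-!
# P032: the counting rule of the word of a clean five coloured centre
-/

open Set Filter Topology Metric

noncomputable section

namespace Vale.Agent.P032.S5.H122

open Vale.Agent.P032.Six Vale.Agent.P032.S5.H767 Vale.Agent.P032.Words

variable {U : Fin 6 → Set ℂ} {T : ℂ → Set (Fin 6)} {z : ℂ} {e : Fin 6 → Fin 6}

/-- the centre data from a pentagon of pairs -/
theorem Cn.of_penta (h : Irr U T) (hcl : ∀ y, dist y z = 1 → (T y).ncard ≤ 3) {c : Fin 5 → Fin 6}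
    (hinj : Function.Injective c) (hran : T z = range c)
    (hp : ∀ q, dist q z = 1 → (T q).ncard = 2 → T q ⊆ T z → ∃ i, T q = {c i, c (i + 2)}) :
    ∃ e, Cn U T z e := by
  obtain ⟨m, hm⟩ : ∃ m, m ∉ range c := by
    by_contra hcon
    push Not at hcon
    have h1 : Function.Surjective c := fun x => hcon x
    have := Fintype.card_le_of_surjective c h1
    simp at this
  refine ⟨![c 2, c 0, c 3, c 1, c 4, m], h, ?_, ?_, hcl, ?_⟩
  · have hne : ∀ i, c i ≠ m := fun i hi => hm ⟨i, hi⟩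
    have hc : ∀ i j, c i = c j ↔ i = j := fun i j => hinj.eq_iff
    intro a b hab
    fin_cases a <;> fin_cases b <;>
      simp [hne, hc, fun i => (hne i).symm] at hab ⊢
  · intro l
    rw [hran]
    fin_cases l <;> simp [hm]
  · intro q hq h2 hsub
    obtain ⟨i, hi⟩ := hp q hq h2 hsub
    have key : ∀ i : Fin 5, ∃ l : Fin 6, ({c i, c (i + 2)} : Set (Fin 6)) =
        col ![c 2, c 0, c 3, c 1, c 4, m] l := by
      intro i
      fin_cases i
      · exact ⟨0, by simp [col, ixs, image_insert_eq, Set.pair_comm]⟩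
      · exact ⟨2, by simp [col, ixs, image_insert_eq, Set.pair_comm]⟩
      · exact ⟨4, by simp [col, ixs, image_insert_eq, Set.pair_comm]⟩
      · exact ⟨1, by simp [col, ixs, image_insert_eq, Set.pair_comm]⟩
      · exact ⟨3, by simp [col, ixs, image_insert_eq, Set.pair_comm]⟩
    obtain ⟨l, hl⟩ := key i
    exact ⟨l, hi.trans hl⟩

/-- the letter `E_j` -/
def lE (j : Fin 5) : Fin 6 := ⟨j.val, by omega⟩

/-- the indices of `E_j` and the missing colour -/
def SX (j : Fin 5) : Finset (Fin 6) := ixs (lE j) ∪ {5}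

theorem SX_card : ∀ j : Fin 5, (SX j).card = 3 := by decide +kernel

theorem SX_compl : ∀ j : Fin 5, (SX j)ᶜ = ixs (lE (j + 2)) ∪ ixs (lE (j + 3)) := by decide +kernel

theorem SX_d : ∀ j : Fin 5, ∃ d : Fin 6, d ∈ (SX j)ᶜ ∧ ∀ l : Fin 6, ixs l ≠ (SX j)ᶜ \ {d} := by
  decide +kernel

theorem lE_ne (j : Fin 5) : lE j ≠ 5 := by revert j; decide

theorem lE_23 : ∀ j : Fin 5, lE (j + 2) ≠ lE (j + 3) := by decide

theorem Cn.pal_t (C : Cn U T z e) {j : Fin 5} {u : ℝ} (h1 : u ∈ X5 T z e (lE j))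
    (h2 : u ∈ X5 T z e 5) : T (pt z u) = e '' (SX j : Set (Fin 6)) := by
  rw [pal_of C h1 h2 (lE_ne j)]
  unfold col SX
  rw [Finset.coe_union, image_union]
  rfl

theorem Cn.image_compl (C : Cn U T z e) (S : Finset (Fin 6)) :
    (e '' (S : Set (Fin 6)))ᶜ = e '' ((Sᶜ : Finset (Fin 6)) : Set (Fin 6)) := by
  rw [Finset.coe_compl, Set.image_compl_eq C.bij]

theorem Cn.pal_c (C : Cn U T z e) {j : Fin 5} {u : ℝ} (h1 : u ∈ X5 T z e (lE (j + 2)))
    (h2 : u ∈ X5 T z e (lE (j + 3))) : T (pt z u) = (e '' (SX j : Set (Fin 6)))ᶜ := by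
  rw [pal_of C h1 h2 (lE_23 j), C.image_compl, SX_compl]
  unfold col
  rw [Finset.coe_union, image_union]

/-- exact arcs with the pair accumulate at an end `E_j | f` -/
theorem Cn.ex_t (C : Cn U T z e) {j : Fin 5} {u : ℝ} (h1 : u ∈ X5 T z e (lE j))
    (h2 : u ∈ X5 T z e 5) :
    pt z u ∈ closure (Ex T z (T z ∩ e '' (SX j : Set (Fin 6)))) := by
  obtain ⟨P, hP, h5, hcl⟩ := X5_ex' C (lE_ne j) h1
  have h3 : P ⊆ T (pt z u) := sub_of_closure C.irr hcl
  rw [C.pal_t h1 h2] at h3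
  have h4 : P = T z ∩ e '' (SX j : Set (Fin 6)) := by
    refine Subset.antisymm (fun i hi => ⟨?_, h3 hi⟩) ?_
    · obtain ⟨l, rfl⟩ := C.bij.2 i
      exact (C.pal l).2 fun h => h5 (h ▸ hi)
    · rintro i ⟨hi, l, hl, rfl⟩
      have hl5 := (C.pal l).1 hi
      have hl' : l ∈ ixs (lE j) ∪ {5} := hl
      rcases Finset.mem_union.1 hl' with h6 | h6
      · exact hP ⟨l, h6, rfl⟩
      · exact absurd (Finset.mem_singleton.1 h6) hl5
  rw [← h4]; exact hcl

/-- **The counting rule** -/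
theorem Cn.count (C : Cn U T z e)
    (hmin : ∀ z, 4 ≤ (T z).ncard → ∀ s, s ⊆ T z → s ≠ T z →
      ¬ ∀ᶠ w in 𝓝 z, ∃ i ∈ s, w ∈ U i ∨ (w ∈ XX U ∧ i ∈ Pal U w))
    (hD : ∀ z v, dist z v = 1 → 4 ≤ (T v).ncard → (∃ a b c d, DPt T z a b c d) → False)
    (h5 : (T z).ncard = 5) {j : Fin 5} {u u' w w' : ℝ}
    (h1 : u ∈ X5 T z e (lE j)) (h2 : u ∈ X5 T z e 5)
    (h1' : u' ∈ X5 T z e (lE j)) (h2' : u' ∈ X5 T z e 5)
    (h3 : w ∈ X5 T z e (lE (j + 2))) (h4 : w ∈ X5 T z e (lE (j + 3)))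
    (h3' : w' ∈ X5 T z e (lE (j + 2))) (h4' : w' ∈ X5 T z e (lE (j + 3))) :
    pt z u = pt z u' ∧ pt z w = pt z w' := by
  obtain ⟨d, hd, hdl⟩ := SX_d j
  have hX : (e '' (SX j : Set (Fin 6))).ncard = 3 := by
    rw [Set.ncard_image_of_injective _ C.inj, Set.ncard_coe_finset, SX_card]
  refine one_oneD (U := U) (T := T) (X := e '' (SX j : Set (Fin 6))) (d := e d) C.irr hmin hD h5 hX
    ?_ ?_ ?_ (C.ex_t h1 h2) (C.ex_t h1' h2') (C.pal_t h1 h2) (C.pal_t h1' h2') (dist_pt z w)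
    (dist_pt z w') (C.pal_c h3 h4) (C.pal_c h3' h4')
  · intro i hi
    rw [C.image_compl] at hi
    obtain ⟨l, hl, rfl⟩ := hi
    refine (C.pal l).2 ?_
    rintro rfl
    have h6 : (5 : Fin 6) ∉ (SX j)ᶜ := by
      rw [Finset.mem_compl, not_not]; exact Finset.mem_union_right _ (Finset.mem_singleton_self _)
    exact h6 hl
  · rw [C.image_compl]; exact ⟨d, hd, rfl⟩
  · intro y hy hTy
    have h6 : T y = e '' (((SX j)ᶜ \ {d} : Finset (Fin 6)) : Set (Fin 6)) := by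
      rw [hTy, C.image_compl, Finset.coe_sdiff, Finset.coe_singleton, Set.image_sdiff C.inj,
        Set.image_singleton]
    have h7 : (T y).ncard = 2 := by
      rw [h6, Set.ncard_image_of_injective _ C.inj, Set.ncard_coe_finset, Finset.card_sdiff_of_subset
        (Finset.singleton_subset_iff.2 hd), Finset.card_compl, SX_card]
      simp
    obtain ⟨l, hl⟩ := C.pairs y hy h7 (fun i hi => by
      rw [h6] at hi
      obtain ⟨l, hl, rfl⟩ := hi
      refine (C.pal l).2 ?_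
      rintro rfl
      have h8 : (5 : Fin 6) ∈ (SX j)ᶜ \ {d} := hl
      have h9 : (5 : Fin 6) ∉ (SX j)ᶜ := by
        rw [Finset.mem_compl, not_not]
        exact Finset.mem_union_right _ (Finset.mem_singleton_self _)
      exact h9 (Finset.mem_sdiff.1 h8).1)
    refine hdl l ?_
    rw [h6] at hl
    unfold col at hl
    have h8 := C.inj.image_injective hl
    exact (Finset.coe_injective h8).symm

/-- equal points have angles which differ by a multiple of six -/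
theorem pt_eq_iff {u u' : ℝ} (h : pt z u = pt z u') : ∃ n : ℤ, u = u' + 6 * (n : ℝ) := by
  have h1 : cis (u * (Real.pi / 3)) = cis (u' * (Real.pi / 3)) := by
    unfold pt at h; exact add_left_cancel h
  unfold cis at h1
  obtain ⟨n, hn⟩ := Complex.exp_eq_exp_iff_exists_int.1 h1
  refine ⟨n, ?_⟩
  have h2 : ((u * (Real.pi / 3) : ℝ) : ℂ) = (u' * (Real.pi / 3) : ℝ) + n * (2 * Real.pi) := by
    have hI := Complex.I_ne_zero
    have : (((u * (Real.pi / 3) : ℝ) : ℂ) - ((u' * (Real.pi / 3) : ℝ) + n * (2 * Real.pi))) *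
        Complex.I = 0 := by linear_combination hn
    rcases mul_eq_zero.1 this with h | h
    · linear_combination h
    · exact absurd h hI
  have h3 : u * (Real.pi / 3) = u' * (Real.pi / 3) + n * (2 * Real.pi) := by exact_mod_cast h2
  have hpi : Real.pi ≠ 0 := Real.pi_ne_zero
  have h4 : (u - u' - 6 * n) * Real.pi = 0 := by linear_combination 3 * h3
  rcases mul_eq_zero.1 h4 with h5 | h5
  · linarith
  · exact absurd h5 hpi

/-- **The counting rule**, in the form of the word theorems -/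
theorem Cn.cnt (C : Cn U T z e)
    (hmin : ∀ z, 4 ≤ (T z).ncard → ∀ s, s ⊆ T z → s ≠ T z →
      ¬ ∀ᶠ w in 𝓝 z, ∃ i ∈ s, w ∈ U i ∨ (w ∈ XX U ∧ i ∈ Pal U w))
    (hD : ∀ z v, dist z v = 1 → 4 ≤ (T v).ncard → (∃ a b c d, DPt T z a b c d) → False)
    (h5 : (T z).ncard = 5) (j : Fin 5) :
    (∀ u, u ∈ X5 T z e (lE j) → u ∉ X5 T z e 5) ∨
      (∀ u, u ∈ X5 T z e (lE (j + 2)) → u ∉ X5 T z e (lE (j + 3))) ∨
      ∃ s t : ℝ,
        (∀ u, u ∈ X5 T z e (lE j) → u ∈ X5 T z e 5 → ∃ n : ℤ, u = s + 6 * (n : ℝ)) ∧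
        ∀ u, u ∈ X5 T z e (lE (j + 2)) → u ∈ X5 T z e (lE (j + 3)) →
          ∃ n : ℤ, u = t + 6 * (n : ℝ) := by
  by_contra hcon
  push Not at hcon
  obtain ⟨⟨s, h1, h2⟩, ⟨t, h3, h4⟩, h6⟩ := hcon
  obtain ⟨u, k1, k2, k3⟩ := h6 s t (fun u k1 k2 =>
    pt_eq_iff (C.count hmin hD h5 k1 k2 h1 h2 h3 h4 h3 h4).1)
  obtain ⟨n, hn⟩ := pt_eq_iff (C.count hmin hD h5 h1 h2 h1 h2 k1 k2 h3 h4).2
  exact k3 n hn

end Vale.Agent.P032.S5.H122
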