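import Vale.Agent.P032.S5.H122.Cnt5
import Vale.Agent.P032.Words5.H819.Word5

/-!
# P032: the word of a clean five coloured centre as a `Word5`
-/

open Set Filter Topology Metric

noncomputable section

namespace Vale.Agent.P032.S5.H122

open Vale.Agent.P032.Six Vale.Agent.P032.S5.H767 Vale.Agent.P032.Words

variable {U : Fin 6 → Set ℂ} {T : ℂ → Set (Fin 6)} {z : ℂ} {e : Fin 6 → Fin 6}

theorem adjN_iff : ∀ a b : Fin 6, Pent.adjN a.val b.val = true ↔ Disjoint (ixs a) (ixs b) := by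
  decide +kernel

theorem oppN_iff : ∀ a b : Fin 6, Pent.oppN a.val b.val = true ↔ ant a b = true := by
  decide +kernel

theorem tgN_iff : ∀ a b : Fin 6, Pent.tgN a.val b.val = true ↔ tog a b = true := by
  decide +kernel

/-- **The word of a clean five coloured centre** is a `Word5` up to the counting rule and the rule on
frozen events. -/
theorem Cn.word5 (C : Cn U T z e)
    (cnt : ∀ j : Fin 5, (∀ u, u ∈ X5 T z e (Pent.EL j.val) → u ∉ X5 T z e 5) ∨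
      (∀ u, u ∈ X5 T z e (Pent.EL (j.val + 2)) → u ∉ X5 T z e (Pent.EL (j.val + 3))) ∨
      ∃ s t : ℝ,
        (∀ u, u ∈ X5 T z e (Pent.EL j.val) → u ∈ X5 T z e 5 → ∃ n : ℤ, u = s + 6 * (n : ℝ)) ∧
        ∀ u, u ∈ X5 T z e (Pent.EL (j.val + 2)) → u ∈ X5 T z e (Pent.EL (j.val + 3)) →
          ∃ n : ℤ, u = t + 6 * (n : ℝ))
    (nofr : ∀ (i : Fin 3) (a : Fin 5) (s : Bool) (q : Fin 6) (t : Bool) (u : ℝ),
      (∀ k : Fin 6, u + (k.val : ℝ) ∈ X5 T z e (Pent.trH a s q t (Pent.fx i) k)) →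
      (∀ k : Fin 6, u + (k.val : ℝ) ∈ X5 T z e (Pent.trH a s q t (Pent.fy i) k)) →
      (∃ᶠ v in 𝓝 u, Pent.Hat (X5 T z e) v (Pent.trH a s q t (Pent.fx i))) →
      (∃ᶠ v in 𝓝 u, Pent.Hat (X5 T z e) v (Pent.trH a s q t (Pent.fy i))) →
      (∀ᶠ v in 𝓝 u, ∀ h, Pent.Hat (X5 T z e) v h →
        h = Pent.trH a s q t (Pent.fx i) ∨ h = Pent.trH a s q t (Pent.fy i)) → False) :
    Pent.Word5 (X5 T z e) where
  closed := X5_closed
  per := X5_per
  gen := gen C.irr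
  two := fun _ _ _ _ h1 h2 h3 => two C h1 h2 h3
  tog := fun _ l m h1 h2 => (tgN_iff l m).2 (tog_of C h1 h2)
  sixty := fun _ l m h1 h2 => (adjN_iff l m).2 (sixty C h1 h2)
  anti := fun _ l m h1 h2 => (oppN_iff l m).2 (anti3 C h1 h2)
  swap1 := fun _ a a' b b' h1 h2 h3 h4 h5 _ => by
    rw [adjN_iff, adjN_iff]
    exact swap1 C h1 h2 h3 h4 ((adjN_iff a b).1 h5)
  swap3 := fun _ a a' b b' h1 h2 h3 h4 h5 _ => by
    rw [oppN_iff, oppN_iff]
    exact swap3 C h1 h2 h3 h4 ((oppN_iff a b).1 h5)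
  cnt := cnt
  nofr := nofr

theorem EL_eq : ∀ j : Fin 5, Pent.EL j.val = lE j ∧ Pent.EL (j.val + 2) = lE (j + 2) ∧
    Pent.EL (j.val + 3) = lE (j + 3) := by
  decide

end Vale.Agent.P032.S5.H122
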