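import Vale.Agent.P032.S5.H767.RawT
import Vale.Agent.P032.S5.H767.Five

/-!
# P032: the word of a clean five coloured centre (irredundant frame)

`Cn U T z e`: `T z = {e 0, …, e 4}`, `e 5` is the missing colour, all points of `S(z)` have at most
three colours, and the points of `S(z)` with two colours, both in `T z`, have a palette
`{e j, e (j + 1)}`.  `X5 T z e l` is the closure of the set of angles where `T` is locally constant and
has the letter `l`.  All rules of the words of `Words5`.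
-/

open Set Filter Topology Metric

noncomputable section

namespace Vale.Agent.P032.S5.H122

open Vale.Agent.P032.Six Vale.Agent.P032.S5.H767 Vale.Agent.P032.Words

variable {U : Fin 6 → Set ℂ} {T : ℂ → Set (Fin 6)} {z : ℂ} {e : Fin 6 → Fin 6}

/-- indices of the colours of a letter -/
def ixs : Fin 6 → Finset (Fin 6) := ![{0, 1}, {1, 2}, {2, 3}, {3, 4}, {4, 0}, {5}]

/-- colours of a letter -/
def col (e : Fin 6 → Fin 6) (l : Fin 6) : Set (Fin 6) := e '' (ixs l : Set (Fin 6))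

/-- a clean five coloured centre -/
structure Cn (U : Fin 6 → Set ℂ) (T : ℂ → Set (Fin 6)) (z : ℂ) (e : Fin 6 → Fin 6) : Prop where
  irr : Irr U T
  inj : Function.Injective e
  pal : ∀ l, e l ∈ T z ↔ l ≠ 5
  clean : ∀ y, dist y z = 1 → (T y).ncard ≤ 3
  pairs : ∀ q, dist q z = 1 → (T q).ncard = 2 → T q ⊆ T z → ∃ l, T q = col e l

open Classical in
/-- indices of a palette -/
def Sx (e : Fin 6 → Fin 6) (P : Set (Fin 6)) : Finset (Fin 6) := Finset.univ.filter fun l => e l ∈ P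

theorem mem_Sx {P : Set (Fin 6)} {l : Fin 6} : l ∈ Sx e P ↔ e l ∈ P := by
  simp [Sx]

theorem col_sub {P : Set (Fin 6)} {l : Fin 6} : col e l ⊆ P ↔ ixs l ⊆ Sx e P := by
  unfold col
  rw [image_subset_iff]
  constructor
  · intro h m hm; exact mem_Sx.2 (h hm)
  · intro h m hm; exact mem_Sx.1 (h hm)

namespace Cn

theorem bij (C : Cn U T z e) : Function.Bijective e := Finite.injective_iff_bijective.1 C.inj

theorem image_Sx (C : Cn U T z e) (P : Set (Fin 6)) : e '' (Sx e P : Set (Fin 6)) = P := by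
  ext i
  constructor
  · rintro ⟨l, hl, rfl⟩; exact mem_Sx.1 hl
  · intro hi
    obtain ⟨l, rfl⟩ := C.bij.2 i
    exact ⟨l, mem_Sx.2 hi, rfl⟩

theorem card (C : Cn U T z e) (P : Set (Fin 6)) : (Sx e P).card = P.ncard := by
  conv_rhs => rw [← C.image_Sx P]
  rw [Set.ncard_image_of_injective _ C.inj, Set.ncard_coe_finset]

theorem Sx_col (C : Cn U T z e) (l : Fin 6) : Sx e (col e l) = ixs l := by
  ext m
  rw [mem_Sx]
  unfold col
  constructor
  · rintro ⟨n, hn, h⟩
    exact C.inj h ▸ hn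
  · intro h; exact ⟨m, h, rfl⟩

theorem disj_iff (C : Cn U T z e) (a b : Fin 6) :
    Disjoint (col e a) (col e b) ↔ Disjoint (ixs a) (ixs b) := by
  unfold col
  rw [Set.disjoint_image_iff C.inj, Finset.disjoint_coe]

theorem five (C : Cn U T z e) : 5 ≤ (T z).ncard := by
  rw [← C.card]
  have h1 : ({0, 1, 2, 3, 4} : Finset (Fin 6)) ⊆ Sx e (T z) := by
    intro l hl
    refine mem_Sx.2 ((C.pal l).2 ?_)
    rintro rfl
    revert hl; decide
  exact (by decide : 5 ≤ ({0, 1, 2, 3, 4} : Finset (Fin 6)).card).trans (Finset.card_le_card h1)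

theorem miss (C : Cn U T z e) {i : Fin 6} (hi : i ∉ T z) : i = e 5 := by
  obtain ⟨l, rfl⟩ := C.bij.2 i
  by_contra hne
  exact hi ((C.pal l).2 fun h => hne (by rw [h]))

theorem mem_XX (C : Cn U T z e) : z ∈ XX U := by
  by_contra hz
  have key : ∀ y, dist y z = 1 → T y ⊆ {e 5} := by
    intro y hy m hm
    refine C.miss fun hmz => ?_
    exact C.irr.mx.notMem' (C.irr.off z hz m hmz) (by rw [dist_comm]; exact hy) (C.irr.sub y hm)
  have h0 := C.irr.mem_of_single (key _ (dist_pt z 0))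
  obtain ⟨j, hj⟩ := C.irr.ne (pt z (0 + 1))
  have h1 : j = e 5 := key _ (dist_pt z (0 + 1)) hj
  exact C.irr.mx.notMem' h0 (dist_pt_one z 0) (C.irr.sub _ (h1 ▸ hj))

/-- a point of `S(z)` has at least two colours -/
theorem two_le (C : Cn U T z e) {y : ℂ} (hy : dist y z = 1) : 2 ≤ (T y).ncard ∨ T y = {e 5} := by
  by_cases h2 : 2 ≤ (T y).ncard
  · exact Or.inl h2
  · right
    obtain ⟨i, hi⟩ := C.irr.ne y
    have h1 : T y ⊆ {i} := fun m hm => (Set.ncard_le_one (Set.toFinite _)).1 (by omega) m hm i hi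
    have h3 : T y = {i} := Subset.antisymm h1 (by rintro m rfl; exact hi)
    rw [h3]
    congr 1
    refine C.miss fun hiz => ?_
    exact C.irr.mx.notMem' (C.irr.mem_of_single h1) hy (C.irr.sub z hiz)

/-- **Cover.** every point of `S(z)` carries a letter -/
theorem letter (C : Cn U T z e) {y : ℂ} (hy : dist y z = 1) : ∃ l, col e l ⊆ T y := by
  rcases C.two_le hy with h2 | h2
  · by_cases h5 : e 5 ∈ T y
    · exact ⟨5, by rintro _ ⟨l, hl, rfl⟩; simp [ixs] at hl; rw [hl]; exact h5⟩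
    · by_cases hc : (T y).ncard = 2
      · obtain ⟨l, hl⟩ := C.pairs y hy hc (fun i hi => by
          by_contra hiz
          exact h5 (C.miss hiz ▸ hi))
        exact ⟨l, hl.ge⟩
      · have h3 := C.clean y hy
        have h4 : (Sx e (T y)).card = 3 := by rw [C.card]; omega
        have h6 : (5 : Fin 6) ∉ Sx e (T y) := fun h => h5 (mem_Sx.1 h)
        have key : ∀ S : Finset (Fin 6), S.card = 3 → 5 ∉ S → ∃ l, ixs l ⊆ S := by
          decide +kernel
        obtain ⟨l, hl⟩ := key _ h4 h6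
        exact ⟨l, col_sub.2 hl⟩
  · exact ⟨5, by rw [h2]; rintro _ ⟨l, hl, rfl⟩; simp [ixs] at hl; rw [hl]; rfl⟩

end Cn

open Classical in
/-- the letter of a palette: the missing colour if it occurs -/
def lt (e : Fin 6 → Fin 6) (P : Set (Fin 6)) : Fin 6 :=
  if e 5 ∈ P then 5 else if h : ∃ l, col e l ⊆ P then h.choose else 0

theorem col_five {P : Set (Fin 6)} (h : e 5 ∈ P) : col e 5 ⊆ P := by
  rintro _ ⟨l, hl, rfl⟩
  simp [ixs] at hl
  rw [hl]; exact h

theorem lt_sub {P : Set (Fin 6)} (h : ∃ l, col e l ⊆ P) : col e (lt e P) ⊆ P := by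
  unfold lt
  by_cases h5 : e 5 ∈ P
  · rw [if_pos h5]; exact col_five h5
  · rw [if_neg h5, dif_pos h]
    exact h.choose_spec

theorem lt_five {P : Set (Fin 6)} (h : e 5 ∈ P) : lt e P = 5 := by
  unfold lt; rw [if_pos h]

/-- angles where the palette is locally constant and has the letter `l` -/
def Dl (T : ℂ → Set (Fin 6)) (z : ℂ) (e : Fin 6 → Fin 6) (l : Fin 6) : Set ℝ :=
  {u | (∀ᶠ v in 𝓝 u, T (pt z v) = T (pt z u)) ∧ lt e (T (pt z u)) = l}

/-- **The letter sets** -/
def X5 (T : ℂ → Set (Fin 6)) (z : ℂ) (e : Fin 6 → Fin 6) (l : Fin 6) : Set ℝ :=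
  closure (Dl T z e l)

theorem Dl_open (l : Fin 6) : IsOpen (Dl T z e l) := by
  rw [isOpen_iff_mem_nhds]
  intro u hu
  filter_upwards [eventually_eventually_nhds.2 hu.1, hu.1] with v h1 h2
  refine ⟨?_, by rw [h2]; exact hu.2⟩
  filter_upwards [h1] with w hw
  rw [hw, h2]

theorem Dl_per (l : Fin 6) (u : ℝ) : u + 6 ∈ Dl T z e l ↔ u ∈ Dl T z e l := by
  unfold Dl
  simp only [mem_ofPred_eq, pt_six]
  have key : ∀ (c : ℝ) {u : ℝ} {P : Set (Fin 6)}, (∀ v, pt z (v + c) = pt z v) →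
      (∀ᶠ v in 𝓝 u, T (pt z v) = P) → ∀ᶠ v in 𝓝 (u + c), T (pt z v) = P := by
    intro c u P hc h
    have h1 : Tendsto (fun v : ℝ => v - c) (𝓝 (u + c)) (𝓝 u) := by
      have : Continuous fun v : ℝ => v - c := by fun_prop
      have h2 := this.tendsto (u + c)
      simpa using h2
    filter_upwards [h1.eventually h] with v hv
    rw [← hc (v - c)] at hv
    simpa using hv
  refine and_congr_left fun _ => ⟨fun h => ?_, fun h => key 6 (pt_six z) h⟩
  have := key (-6) (u := u + 6) (fun v => by rw [← pt_six z (v + -6)]; congr 1; ring) h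
  simpa using this

theorem X5_closed (l : Fin 6) : IsClosed (X5 T z e l) := isClosed_closure

theorem X5_per (l : Fin 6) (u : ℝ) : u + 6 ∈ X5 T z e l ↔ u ∈ X5 T z e l := by
  have hpre : (fun v : ℝ => v + 6) ⁻¹' (Dl T z e l) = Dl T z e l := by
    ext v; exact Dl_per l v
  have h1 := (Homeomorph.addRight (6 : ℝ)).preimage_closure (Dl T z e l)
  have h2 : (⇑(Homeomorph.addRight (6 : ℝ))) = fun v : ℝ => v + 6 := rfl
  rw [h2, hpre] at h1
  show u + 6 ∈ closure (Dl T z e l) ↔ u ∈ closure (Dl T z e l)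
  conv_rhs => rw [← h1]
  exact Iff.rfl

/-- a palette is locally constant near some angle of any neighbourhood -/
theorem dense_const (h : Irr U T) (z : ℂ) :
    Dense {u : ℝ | ∀ᶠ v in 𝓝 u, T (pt z v) = T (pt z u)} := by
  intro u
  rw [mem_closure_iff_nhds]
  intro N hN
  obtain ⟨w, hwN, hwo, huw⟩ := _root_.mem_nhds_iff.1 hN
  have hne : ((fun v => (T (pt z v)).ncard) '' w).Nonempty := ⟨_, u, huw, rfl⟩
  obtain ⟨_, ⟨v, hv, rfl⟩, hmin⟩ :=
    WellFounded.has_min (r := ((· < ·) : ℕ → ℕ → Prop)) wellFounded_lt _ hne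
  refine ⟨v, hwN hv, ?_⟩
  have h1 : ∀ᶠ v' in 𝓝 v, T (pt z v') ⊆ T (pt z v) :=
    ((continuous_pt z).tendsto v).eventually (h.nhd (pt z v))
  filter_upwards [h1, hwo.mem_nhds hv] with v' h2 h3
  exact Set.eq_of_subset_of_ncard_le h2 (not_lt.1 (hmin _ ⟨v', h3, rfl⟩)) (Set.toFinite _)

theorem mem_X5_of_Dl {l m : Fin 6} {u : ℝ} (hu : u ∈ Dl T z e l) : u ∈ X5 T z e m ↔ m = l := by
  constructor
  · intro h
    obtain ⟨v, hv1, hv2⟩ := mem_closure_iff.1 h _ (Dl_open l) hu
    exact hv2.2.symm.trans hv1.2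
  · rintro rfl; exact subset_closure hu

/-- **gen**: the angles with exactly one letter are dense -/
theorem gen (h : Irr U T) : Dense {u : ℝ | ∃ l, ∀ m, u ∈ X5 T z e m ↔ m = l} := by
  refine (dense_const h z).mono fun u hu => ?_
  exact ⟨lt e (T (pt z u)), fun m => mem_X5_of_Dl ⟨hu, rfl⟩⟩

theorem cover (h : Irr U T) (u : ℝ) : ∃ l, u ∈ X5 T z e l := by
  have h1 : (univ : Set ℝ) ⊆ ⋃ l, X5 T z e l := by
    have h2 : IsClosed (⋃ l, X5 T z e l) := isClosed_iUnion_of_finite fun l => X5_closed l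
    have h3 := (dense_const h z).mono (s₂ := ⋃ l, X5 T z e l) fun u hu =>
      mem_iUnion.2 ⟨lt e (T (pt z u)), subset_closure ⟨hu, rfl⟩⟩
    rw [← h2.closure_eq, h3.closure_eq]
  exact mem_iUnion.1 (h1 (mem_univ u))

/-- the colours of the letter are colours of the point -/
theorem X5_col (C : Cn U T z e) {l : Fin 6} {u : ℝ} (hu : u ∈ X5 T z e l) :
    col e l ⊆ T (pt z u) := by
  intro i hi
  have h1 : X5 T z e l ⊆ pt z ⁻¹' {x | i ∈ T x} := by
    refine closure_minimal (fun v hv => ?_) ((C.irr.closed i).preimage (continuous_pt z))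
    have h2 := lt_sub (C.letter (dist_pt z v))
    rw [hv.2] at h2
    exact h2 hi
  exact h1 hu

/-- near an angle of the letter there are exact arcs whose palette contains the letter -/
theorem X5_ex (C : Cn U T z e) {l : Fin 6} {u : ℝ} (hu : u ∈ X5 T z e l) :
    ∃ P, col e l ⊆ P ∧ pt z u ∈ closure (Ex T z P) := by
  have h1 : Dl T z e l ⊆ ⋃ P : Set (Fin 6), {v | col e l ⊆ P ∧ pt z v ∈ Ex T z P} := by
    intro v hv
    refine mem_iUnion.2 ⟨T (pt z v), ?_, mem_Ex_of z hv.1⟩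
    have h2 := lt_sub (C.letter (dist_pt z v))
    rwa [hv.2] at h2
  have h2 := closure_mono h1 hu
  rw [closure_iUnion_of_finite] at h2
  obtain ⟨P, hP⟩ := mem_iUnion.1 h2
  have hne : ({v | col e l ⊆ P ∧ pt z v ∈ Ex T z P} : Set ℝ).Nonempty :=
    closure_nonempty_iff.1 ⟨u, hP⟩
  obtain ⟨v, hv, -⟩ := hne
  refine ⟨P, hv, ?_⟩
  have h3 := (continuous_pt z).closure_preimage_subset (Ex T z P)
  exact h3 (closure_mono (fun v hv => hv.2) hP)

/-- the exact arcs of a diagonal do not have the missing colour -/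
theorem X5_ex' (C : Cn U T z e) {l : Fin 6} (hl : l ≠ 5) {u : ℝ} (hu : u ∈ X5 T z e l) :
    ∃ P, col e l ⊆ P ∧ e 5 ∉ P ∧ pt z u ∈ closure (Ex T z P) := by
  have h1 : Dl T z e l ⊆ ⋃ P : Set (Fin 6), {v | (col e l ⊆ P ∧ e 5 ∉ P) ∧ pt z v ∈ Ex T z P} := by
    intro v hv
    refine mem_iUnion.2 ⟨T (pt z v), ⟨?_, fun h5 => hl ?_⟩, mem_Ex_of z hv.1⟩
    · have h2 := lt_sub (C.letter (dist_pt z v))
      rwa [hv.2] at h2
    · rw [← hv.2, lt_five h5]
  have h2 := closure_mono h1 hu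
  rw [closure_iUnion_of_finite] at h2
  obtain ⟨P, hP⟩ := mem_iUnion.1 h2
  have hne : ({v | (col e l ⊆ P ∧ e 5 ∉ P) ∧ pt z v ∈ Ex T z P} : Set ℝ).Nonempty :=
    closure_nonempty_iff.1 ⟨u, hP⟩
  obtain ⟨v, hv, -⟩ := hne
  refine ⟨P, hv.1, hv.2, ?_⟩
  have h3 := (continuous_pt z).closure_preimage_subset (Ex T z P)
  exact h3 (closure_mono (fun v hv => hv.2) hP)

/-- at a single letter angle the letter is on the whole circle -/
theorem single_arc (C : Cn U T z e) {l : Fin 6} {u : ℝ} (hu : ∀ m, u ∈ X5 T z e m ↔ m = l) :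
    ∀ᶠ q in 𝓝[sphere z 1] (pt z u), col e l ⊆ T q := by
  have h1 : ∀ᶠ v in 𝓝 u, ∀ m, m ≠ l → v ∉ X5 T z e m := by
    rw [Filter.eventually_all]
    intro m
    by_cases hm : m = l
    · exact Eventually.of_forall fun v h => absurd hm h
    · have h2 : u ∈ (X5 T z e m)ᶜ := fun h => hm ((hu m).1 h)
      filter_upwards [(X5_closed m).isOpen_compl.mem_nhds h2] with v hv _ using hv
  refine ev_circle z ?_
  filter_upwards [h1] with v hv
  obtain ⟨m, hm⟩ := cover (e := e) (z := z) C.irr v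
  have : m = l := by
    by_contra hne
    exact hv m hne hm
  exact X5_col C (this ▸ hm)

/-- at most two letters -/
theorem two (C : Cn U T z e) {u : ℝ} {l m n : Fin 6} (hl : u ∈ X5 T z e l) (hm : u ∈ X5 T z e m)
    (hn : u ∈ X5 T z e n) : l = m ∨ m = n ∨ n = l := by
  have h3 := C.clean _ (dist_pt z u)
  rw [← C.card] at h3
  have key : ∀ S : Finset (Fin 6), S.card ≤ 3 → ∀ l m n, ixs l ⊆ S → ixs m ⊆ S → ixs n ⊆ S →
      l = m ∨ m = n ∨ n = l := by
    decide +kernel
  exact key _ h3 l m n (col_sub.1 (X5_col C hl)) (col_sub.1 (X5_col C hm)) (col_sub.1 (X5_col C hn))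

/-- two letters together -/
def tog : Fin 6 → Fin 6 → Bool := fun l m =>
  l == m || l == 5 || m == 5 || (ixs l ∩ ixs m).Nonempty

/-- two diagonals at one point have a common colour -/
theorem tog_of (C : Cn U T z e) {u : ℝ} {l m : Fin 6} (hl : u ∈ X5 T z e l)
    (hm : u ∈ X5 T z e m) : tog l m = true := by
  have h3 := C.clean _ (dist_pt z u)
  rw [← C.card] at h3
  have key : ∀ S : Finset (Fin 6), S.card ≤ 3 → ∀ l m, ixs l ⊆ S → ixs m ⊆ S → tog l m = true := by
    decide +kernel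
  exact key _ h3 l m (col_sub.1 (X5_col C hl)) (col_sub.1 (X5_col C hm))

/-- the palette at a point with two letters -/
theorem pal_of (C : Cn U T z e) {u : ℝ} {l m : Fin 6} (hl : u ∈ X5 T z e l)
    (hm : u ∈ X5 T z e m) (hlm : l ≠ m) : T (pt z u) = col e l ∪ col e m := by
  have h3 := C.clean _ (dist_pt z u)
  rw [← C.card] at h3
  have key : ∀ S : Finset (Fin 6), S.card ≤ 3 → ∀ l m, l ≠ m → ixs l ⊆ S → ixs m ⊆ S →
      S = ixs l ∪ ixs m := by
    decide +kernel
  have h4 := key _ h3 l m hlm (col_sub.1 (X5_col C hl)) (col_sub.1 (X5_col C hm))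
  rw [← C.image_Sx (T (pt z u)), h4]
  unfold col
  rw [Finset.coe_union, image_union]

/-- **sixty**: single letters at 60 degrees are disjoint -/
theorem sixty (C : Cn U T z e) {u : ℝ} {l m : Fin 6} (hl : ∀ n, u ∈ X5 T z e n ↔ n = l)
    (hm : ∀ n, u + 1 ∈ X5 T z e n ↔ n = m) : Disjoint (ixs l) (ixs m) := by
  rw [← C.disj_iff, Set.disjoint_left]
  intro i hi hi'
  have h1 := single_arc C hl
  have h2 : i ∈ T (pt z (u + 1)) := X5_col C ((hm m).2 rfl) hi'
  exact arc_free C.irr (dist_pt z u) (h1.mono fun q hq => hq hi) (dist_pt z (u + 1))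
    (dist_pt_one z u) h2

/-- **swap1**: two letters at each of two points at 60 degrees -/
theorem swap1 (C : Cn U T z e) {u : ℝ} {a a' b b' : Fin 6} (ha : u ∈ X5 T z e a)
    (ha' : u ∈ X5 T z e a') (hb : u + 1 ∈ X5 T z e b) (hb' : u + 1 ∈ X5 T z e b')
    (h : Disjoint (ixs a) (ixs b)) :
    Disjoint (ixs a) (ixs b') ∨ Disjoint (ixs a') (ixs b) := by
  rw [← C.disj_iff] at h
  rw [← C.disj_iff, ← C.disj_iff]
  by_contra hcon
  push Not at hcon
  obtain ⟨h1, h2⟩ := hcon
  obtain ⟨i, hi, hi'⟩ := Set.not_disjoint_iff.1 h1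
  obtain ⟨j, hj, hj'⟩ := Set.not_disjoint_iff.1 h2
  have hij := common_le_one C.irr C.five (dist_pt z u) (dist_pt z (u + 1)) (dist_pt_one z u)
    (C.clean _ (dist_pt z u)) (C.clean _ (dist_pt z (u + 1))) (X5_col C ha hi) (X5_col C hb' hi')
    (X5_col C ha' hj) (X5_col C hb hj')
  subst hij
  exact Set.disjoint_left.1 h hi hj'

/-- antipodal points with disjoint diagonals: the fifth colour is absent -/
theorem fifth (C : Cn U T z e) {u : ℝ} {a b : Fin 6} (ha : u ∈ X5 T z e a)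
    (hb : u + 3 ∈ X5 T z e b) {x : Fin 6}
    (hx : ∀ y : Fin 6, y ≠ 5 → y ≠ x → y ∈ ixs a ∨ y ∈ ixs b) : e x ∉ T (pt z u) := by
  intro hxT
  obtain ⟨P, hP, hcl⟩ := X5_ex C hb
  rw [pt_three] at hcl
  refine anti C.irr (dist_pt z u) (C.clean _ (dist_pt z u)) (P := P) (fun i hi => ?_) hcl
  obtain ⟨y, rfl⟩ := C.bij.2 i
  have hy5 : y ≠ 5 := (C.pal y).1 hi
  by_cases hyx : y = x
  · exact Or.inl (hyx ▸ hxT)
  · rcases hx y hy5 hyx with h | h
    · exact Or.inl (X5_col C ha ⟨y, h, rfl⟩)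
    · exact Or.inr (hP ⟨y, h, rfl⟩)

theorem add_three_three {l : Fin 6} {u : ℝ} : u + 3 + 3 ∈ X5 T z e l ↔ u ∈ X5 T z e l := by
  rw [← X5_per l u]
  have : u + 3 + 3 = u + 6 := by ring
  rw [this]

/-- letters allowed at antipodal points -/
def ant : Fin 6 → Fin 6 → Bool := fun a b => a == 5 || b == 5 || (ixs a ∩ ixs b).Nonempty

/-- the two letters contain all indices up to `x` and `5` -/
def cvb (a b x : Fin 6) : Bool := ([0, 1, 2, 3, 4] : List (Fin 6)).all fun y =>
  y == x || decide (y ∈ ixs a) || decide (y ∈ ixs b)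

theorem cvb_spec {a b x : Fin 6} (h : cvb a b x = true) :
    ∀ y : Fin 6, y ≠ 5 → y ≠ x → y ∈ ixs a ∨ y ∈ ixs b := by
  intro y h5 hx
  have h0 : y ∈ ([0, 1, 2, 3, 4] : List (Fin 6)) := by
    clear hx; revert h5; revert y; decide
  have h1 := List.all_eq_true.1 h y h0
  simp only [Bool.or_eq_true, beq_iff_eq, decide_eq_true_eq] at h1
  tauto

theorem swap3_key : ∀ a a' b b' : Fin 6, tog a a' = true → tog b b' = true → ant a b = true → ant a b' = false → ant a' b = false →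
    (∃ x : Fin 6, cvb a b' x = true ∧ (x ∈ ixs a' ∨ x ∈ ixs b))
    ∨ (∃ x : Fin 6, cvb a' b x = true ∧ (x ∈ ixs a ∨ x ∈ ixs b')) := by
  decide +kernel

/-- **swap3** -/
theorem swap3 (C : Cn U T z e) {u : ℝ} {a a' b b' : Fin 6} (ha : u ∈ X5 T z e a)
    (ha' : u ∈ X5 T z e a') (hb : u + 3 ∈ X5 T z e b) (hb' : u + 3 ∈ X5 T z e b')
    (h : ant a b = true) : ant a b' = true ∨ ant a' b = true := by
  by_contra hcon
  push Not at hcon
  obtain ⟨h1, h2⟩ := hcon
  rcases swap3_key a a' b b' (tog_of C ha ha') (tog_of C hb hb') h (by simpa using h1) (by simpa using h2) with ⟨x, hx, h4⟩ | ⟨x, hx, h4⟩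
  · have hx := cvb_spec hx
    rcases h4 with h4 | h4
    · exact fifth C ha hb' hx (X5_col C ha' ⟨x, h4, rfl⟩)
    · exact fifth C hb' (add_three_three.2 ha) (x := x) (fun y h5 h6 => (hx y h5 h6).symm)
        (X5_col C hb ⟨x, h4, rfl⟩)
  · have hx := cvb_spec hx
    rcases h4 with h4 | h4
    · exact fifth C ha' hb hx (X5_col C ha ⟨x, h4, rfl⟩)
    · exact fifth C hb (add_three_three.2 ha') (x := x) (fun y h5 h6 => (hx y h5 h6).symm)
        (X5_col C hb' ⟨x, h4, rfl⟩)

/-- two antipodal arcs which carry all colours of `T z` but one: impossible -/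
theorem anti_open (h : Irr U T) {z p : ℂ} (hz : z ∈ XX U) (hp : dist p z = 1)
    {P P' : Set (Fin 6)} {x : Fin 6} (hJ : ∀ᶠ q in 𝓝[sphere z 1] p, P ⊆ T q)
    (hJ' : ∀ᶠ q in 𝓝[sphere z 1] (2 * z - p), P' ⊆ T q) (hcov : T z ⊆ insert x (P ∪ P')) :
    False := by
  obtain ⟨v, hv, hxv⟩ := h.partner_XX hz x
  -- transport the second arc to `p`
  have hc : Tendsto (fun q : ℂ => 2 * z - q) (𝓝[sphere z 1] p) (𝓝[sphere z 1] (2 * z - p)) := by
    refine tendsto_nhdsWithin_of_tendsto_nhds_of_eventually_within _ ?_ ?_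
    · have : Continuous fun q : ℂ => 2 * z - q := by fun_prop
      exact (this.tendsto p).mono_left nhdsWithin_le_nhds
    · filter_upwards [self_mem_nhdsWithin] with q hq
      have hq : dist q z = 1 := hq
      show dist (2 * z - q) z = 1
      rw [dist_eq_norm] at hq ⊢
      rw [← hq, ← norm_neg]; congr 1; ring
  have hJ2 := hc.eventually (eventually_eventually_nhdsWithin.2 hJ')
  obtain ⟨q, ⟨hq1, hq2⟩, hqz, hqv, hqv2, -⟩ := exists_generic (y := v) hp (hJ.and
    (hJ2.and (eventually_eventually_nhdsWithin.2 hJ)) |>.mono fun q hq =>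
      (⟨hq.2.1, hq.2.2⟩ : (∀ᶠ q' in 𝓝[sphere z 1] (2 * z - q), P' ⊆ T q') ∧
        ∀ᶠ q' in 𝓝[sphere z 1] q, P ⊆ T q'))
  have key0 : ∀ᶠ w in 𝓝[sphere q 1] z, w ≠ z → x ∈ T w := by
    have h1 : Tendsto (fun w : ℂ => z + w - q) (𝓝[sphere q 1] z) (𝓝[sphere z 1] (2 * z - q)) := by
      refine tendsto_nhdsWithin_of_tendsto_nhds_of_eventually_within _ ?_ ?_
      · have : Continuous fun w : ℂ => z + w - q := by fun_prop
        have h2 := (this.tendsto z).mono_left (nhdsWithin_le_nhds (s := sphere q 1))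
        have e1 : z + z - q = 2 * z - q := by ring
        rwa [e1] at h2
      · filter_upwards [self_mem_nhdsWithin] with w hw
        have hw : dist w q = 1 := hw
        show dist (z + w - q) z = 1
        rw [dist_eq_norm] at hw ⊢
        rw [← hw]; congr 1; ring
    have h2 := h1.eventually (eventually_eventually_nhdsWithin.2 hq1)
    filter_upwards [h2, self_mem_nhdsWithin, mem_nhdsWithin_of_mem_nhds (h.nhd z),
      mem_nhdsWithin_of_mem_nhds (ball_mem_nhds z one_pos)] with w hw1 hw2 hw3 hw4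
    have hw2 : dist w q = 1 := hw2
    have hw4 : dist w z < 1 := hw4
    intro hwz
    obtain ⟨i, hi⟩ := h.ne w
    rcases hcov (hw3 hi) with rfl | hi' | hi'
    · exact hi
    · exfalso
      refine line_free h hqz (hq2.mono fun r hr => hr hi') (by rw [dist_comm]; exact hw2) hwz
        (fun h5 => ?_) (h.sub w hi)
      have h6 : w - z = 2 * (q - z) := by linear_combination h5
      rw [dist_eq_norm, h6, norm_mul, ← dist_eq_norm, hqz] at hw4
      norm_num at hw4
    · exfalso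
      have hd : dist (z + w - q) z = 1 := by
        rw [dist_eq_norm] at hw2 ⊢
        rw [← hw2]; congr 1; ring
      refine line_free h hd (hw1.mono fun r hr => hr hi') (v := w) ?_ hwz (fun h5 => ?_)
        (h.sub w hi)
      · rw [dist_eq_norm] at hqz ⊢
        rw [← hqz, ← norm_neg]; congr 1; ring
      · have h6 : w - z = 2 * (q - z) := by linear_combination -h5
        rw [dist_eq_norm, h6, norm_mul, ← dist_eq_norm, hqz] at hw4
        norm_num at hw4
  have key : ∀ᶠ w in 𝓝[sphere q 1] z, x ∈ T w := by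
    have hxz : x ∈ T z := by
      by_contra hxz
      have h1 : ∀ᶠ w in 𝓝[sphere q 1] z, x ∉ T w :=
        mem_nhdsWithin_of_mem_nhds ((h.nhd z).mono fun w hw hx => hxz (hw hx))
      obtain ⟨w, ⟨hw1, hw2⟩, -, hwz, -⟩ := exists_generic (y := z)
        (by rw [dist_comm]; exact hqz) (key0.and h1)
      exact hw2 (hw1 hwz)
    filter_upwards [key0] with w hw
    by_cases hwz : w = z
    · rw [hwz]; exact hxz
    · exact hw hwz
  rcases h.mx.partner_line (u := q) (p := z) (t := x) (by rw [dist_comm]; exact hqz)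
    (key.mono fun w hw => h.sub w hw) hv hxv with h3 | h3
  · exact hqv h3.symm
  · exact hqv2 (by linear_combination h3)

/-- **anti**: single letters at antipodal points are not disjoint diagonals -/
theorem anti3 (C : Cn U T z e) {u : ℝ} {l m : Fin 6} (hl : ∀ n, u ∈ X5 T z e n ↔ n = l)
    (hm : ∀ n, u + 3 ∈ X5 T z e n ↔ n = m) : ant l m = true := by
  by_contra hcon
  have key : ∀ l m : Fin 6, ant l m ≠ true →
      ∃ x : Fin 6, ∀ y : Fin 6, y ≠ 5 → y ≠ x → y ∈ ixs l ∨ y ∈ ixs m := by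
    decide +kernel
  obtain ⟨x, hx⟩ := key l m hcon
  have h1 := single_arc C hl
  have h2 := single_arc C hm
  rw [pt_three] at h2
  refine anti_open C.irr C.mem_XX (dist_pt z u) (x := e x) h1 h2 fun i hi => ?_
  obtain ⟨y, rfl⟩ := C.bij.2 i
  have hy5 : y ≠ 5 := (C.pal y).1 hi
  by_cases hyx : y = x
  · exact Or.inl (by rw [hyx])
  · rcases hx y hy5 hyx with h | h
    · exact Or.inr (Or.inl ⟨y, h, rfl⟩)
    · exact Or.inr (Or.inr ⟨y, h, rfl⟩)

end Vale.Agent.P032.S5.H122
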